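import Vale.Agent.Lib.P184.Geometric

namespace Vale.Agent.Results.P184.A_cat0_groups

/-- Question Q1 for a group acting properly and cocompactly by isometries on a proper CAT(0) space
(midpoints and the Bruhat-Tits CN inequality). -/
theorem result {G X : Type*} [Group G] [MetricSpace X] [ProperSpace X] [Nonempty X]
    [MulAction G X] [IsIsometricSMul G X]
    (hmid : ∀ x y : X, ∃ m, dist x m = dist x y / 2 ∧ dist y m = dist x y / 2)
    (hCN : ∀ p x y m : X, dist x m = dist x y / 2 → dist y m = dist x y / 2 →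
      dist p m ^ 2 ≤ dist p x ^ 2 / 2 + dist p y ^ 2 / 2 - dist x y ^ 2 / 4)
    (hproper : ∀ K : Set X, IsCompact K → {g : G | ((fun x => g • x) '' K ∩ K).Nonempty}.Finite)
    (hcocompact : ∃ K : Set X, IsCompact K ∧ ∀ x : X, ∃ g : G, g • x ∈ K)
    {q : ℕ} (e : G → Matrix (Fin q) (Fin q) ℂ)
    (he_sum : ∀ i j, Summable fun g => ‖e g i j‖)
    (he_idem : ∀ g i j, ∑' h, ∑ k, e h i k * e (h⁻¹ * g) k j = e g i j) :
    ∃ F : Finset (ConjClasses G), (∀ C ∈ F, ∃ g, ConjClasses.mk g = C ∧ IsOfFinOrder g) ∧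
      ∀ C, C ∉ F → ∑' x : {x : G // ConjClasses.mk x = C}, ∑ i, e x.1 i i = 0 :=
  Vale.Agent.Lib.P184.q1_geometric hmid hCN hproper hcocompact e he_sum he_idem

end Vale.Agent.Results.P184.A_cat0_groups
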