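import Vale.Agent.Lib.P184.Criterion

namespace Vale.Agent.Results.P184.B_criterion

/-- Vanishing of the class trace of idempotents over the `ℓ¹` group algebra at `z`, whenever the
centraliser of `z` has an additive character that is nonzero at `z` and dominated by a
length function on the whole group. -/
theorem result {G : Type*} [Group G] (z : G)
    (L : G → ℝ) (hL : ∀ a b, L (a * b) ≤ L a + L b)
    (χ : G → ℝ) (hχ : ∀ v w, Commute v z → Commute w z → χ (v * w) = χ v + χ w)
    (hχL : ∀ v, Commute v z → |χ v| ≤ L v) (hχz : χ z ≠ 0)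
    {q : ℕ} (e : G → Matrix (Fin q) (Fin q) ℂ)
    (he_sum : ∀ i j, Summable fun g => ‖e g i j‖)
    (he_idem : ∀ g i j, ∑' h, ∑ k, e h i k * e (h⁻¹ * g) k j = e g i j) :
    ∑' x : {x : G // IsConj z x}, ∑ i, e x.1 i i = 0 :=
  Vale.Agent.Lib.P184.criterion z L hL χ hχ hχL hχz e he_sum he_idem

end Vale.Agent.Results.P184.B_criterion
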