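import Vale.Agent.Lib.P184.Roundness

namespace Vale.Agent.Results.P184.C_quadrilateral

/-- Vanishing of the class trace at an isometry with linearly growing orbits of a space satisfying
the quadrilateral inequality (every subset of a CAT(0) space satisfies it). -/
theorem result {G X : Type*} [Group G] [PseudoMetricSpace X] [MulAction G X] [IsIsometricSMul G X]
    (hround : ∀ a b c d : X,
      dist a c ^ 2 + dist b d ^ 2 ≤ dist a b ^ 2 + dist b c ^ 2 + dist c d ^ 2 + dist d a ^ 2)
    (z : G) (y : X) (c : ℝ) (hc : 0 < c) (hlin : ∀ n : ℕ, c * n ≤ dist y ((z ^ n) • y))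
    {q : ℕ} (e : G → Matrix (Fin q) (Fin q) ℂ)
    (he_sum : ∀ i j, Summable fun g => ‖e g i j‖)
    (he_idem : ∀ g i j, ∑' h, ∑ k, e h i k * e (h⁻¹ * g) k j = e g i j) :
    ∑' x : {x : G // IsConj z x}, ∑ i, e x.1 i i = 0 :=
  Vale.Agent.Lib.P184.round_trace_zero hround z y c hc hlin e he_sum he_idem

end Vale.Agent.Results.P184.C_quadrilateral
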