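import Vale.Agent.Lib.P184.Linear

namespace Vale.Agent.Results.P184.D_linear

/-- Vanishing of the class trace at an element that has, in some finite dimensional representation
over an algebraically closed normed field, an eigenvalue of norm different from one. -/
theorem result {𝕜 G : Type*} [NormedField 𝕜] [IsAlgClosed 𝕜] [Group G] {n : ℕ}
    (ρ : G →* Matrix (Fin n) (Fin n) 𝕜) (z : G) (μ : 𝕜)
    (v : Fin n → 𝕜) (hv : v ≠ 0) (hμ : (ρ z).mulVec v = μ • v) (hnorm : ‖μ‖ ≠ 1)
    {q : ℕ} (e : G → Matrix (Fin q) (Fin q) ℂ)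
    (he_sum : ∀ i j, Summable fun g => ‖e g i j‖)
    (he_idem : ∀ g i j, ∑' h, ∑ k, e h i k * e (h⁻¹ * g) k j = e g i j) :
    ∑' x : {x : G // IsConj z x}, ∑ i, e x.1 i i = 0 :=
  Vale.Agent.Lib.P184.linear_trace_zero ρ z μ v hv hμ hnorm e he_sum he_idem

end Vale.Agent.Results.P184.D_linear
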